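import Vale.Agent.P092.H160.Bridge

/-!
P092: a dichotomy for isomorphisms `θ : L(Γ) → L(Λ)` where `Γ` is a finite index subgroup of
`SL_n(ℤ)`, `n ≥ 3`, with `-1 ∉ Γ` (an ICC lattice in `SL_n(ℝ)`), and `Λ` is an arbitrary group:
either `θ` is canonical, or the heights of `θ(u_x^k)` tend to zero on average for every `x ∈ Γ`
which has a nontrivial unipotent power.
-/

open Vale.Agent.P092.H160 Vale.Agent.P092.H160.St

theorem Vale.Agent.Results.P092.HeightDichotomy.result {n : ℕ} (hn : 3 ≤ n)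
    (Γ : Subgroup (Matrix.SpecialLinearGroup (Fin n) ℤ)) [Γ.FiniteIndex]
    (hΓ : ∀ g ∈ Γ, (g : Matrix (Fin n) (Fin n) ℤ) ≠ -1) {Λ : Type} [Group Λ]
    (θ : StarIso Γ Λ) :
    St.Canonical θ ∨ ∀ (x : Γ) (j : ℕ), x ^ j ≠ 1 →
      IsNilpotent ((((x ^ j : Γ) : Matrix.SpecialLinearGroup (Fin n) ℤ) :
        Matrix (Fin n) (Fin n) ℤ) - 1) →
      Filter.Tendsto (fun N : ℕ => (∑ k ∈ Finset.range N,
        St.height (θ.toFun (u (x ^ (k + 1))))) / N) Filter.atTop (nhds 0) := by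
  rcases main_dichotomy hn Γ hΓ (toAlg θ) with h | h
  · exact Or.inl (canonical_iff θ h)
  · refine Or.inr fun x j hj hx => ?_
    have h1 := h x j hj hx
    simp only [← st_height] at h1
    exact h1
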