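import Vale.Agent.P092.H885.Final

/-!
P092: a dichotomy for isomorphisms `θ : L(Γ) → L(Λ)` for every ICC group `Γ` (and every group `Λ`):
either `θ` is canonical, or the random walk averages of the fourth power sums
`∑_s |τ(θ(u_g) v_s*)|⁴` tend to zero, exponentially fast, with constants which depend only on a
Kazhdan pair, when `Γ` has property (T).
-/

open Vale.Agent.P092.H160 Vale.Agent.P092.H160.St Vale.Agent.P092.H885

theorem Vale.Agent.Results.P092.KazhdanDichotomy.result {Γ Λ : Type} [Group Γ] [Group Λ]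
    (hΓ : ∀ g : Γ, g ≠ 1 → Set.Infinite {y : Γ | ∃ h, y = h * g * h⁻¹}) (θ : StarIso Γ Λ) :
    (St.Canonical θ ∧ ∃ c : ℝ, 0 < c ∧ ∀ g : Γ, c ≤ fourth (θ.toFun (u g))) ∨
    ((∀ (Q : Finset Γ) (ε : ℝ), IsKazhdanPair Γ Q ε →
        (∃ s ∈ Q, fourth (θ.toFun (u s)) ≤ 1 - ε ^ 2 / 2) ∧
        ∀ (a b : Γ) (k : ℕ), (avg Q)^[k] (fun g => fourth (θ.toFun (u (a * g * b)))) 1 ≤
          (1 - ε ^ 2 / (4 * Q.card)) ^ k) ∧
      ∀ Q : Finset Γ, Q.Nonempty → Subgroup.closure (Q : Set Γ) = ⊤ → ∀ a b : Γ,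
        Filter.Tendsto
          (fun k : ℕ => (avg Q)^[k] (fun g => fourth (θ.toFun (u (a * g * b)))) 1)
          Filter.atTop (nhds 0)) := by
  by_cases hc : St.Canonical θ
  · exact Or.inl ⟨hc, lower_of_canonical hΓ θ hc⟩
  · exact Or.inr ⟨fun Q ε hK => icc_kazhdan hΓ θ hc hK,
      fun Q hQ hgen a b => icc_soft hΓ θ hc hQ hgen a b⟩
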