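import Vale.Agent.P092.H885.Final

/-!
P092: for a finite index subgroup `Γ` of `SL_n(ℤ)`, `n ≥ 3`, with `-1 ∉ Γ`, and every group `Λ`,
every isomorphism `θ : L(Γ) → L(Λ)` is canonical, or the random walk averages of the fourth power
sums `∑_s |τ(θ(u_g) v_s*)|⁴` decay exponentially, at a rate which depends only on `Γ` and on the
generating set, and is explicit for sets containing four elementary matrices. In particular an
isomorphism which moves these four unitaries only slightly is canonical. No property of `Γ` is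
assumed: the relative property (T) used here is proved in `Vale/Agent/P092/H885/RelT2.lean`.
-/

open Vale.Agent.P092.H160 Vale.Agent.P092.H160.St Vale.Agent.P092.H885

theorem Vale.Agent.Results.P092.SLnUniformGap.result {n : ℕ} (hn : 3 ≤ n)
    (Γ : Subgroup (Matrix.SpecialLinearGroup (Fin n) ℤ)) [Γ.FiniteIndex]
    (hΓ : ∀ g ∈ Γ, (g : Matrix (Fin n) (Fin n) ℤ) ≠ -1) :
    (∀ Q : Finset Γ, Subgroup.closure (Q : Set Γ) = ⊤ → ∃ δ : ℝ, 0 < δ ∧ δ < 1 ∧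
      ∀ (Λ : Type) [Group Λ] (θ : StarIso Γ Λ), St.Canonical θ ∨
        ((∃ s ∈ Q, fourth (θ.toFun (u s)) ≤ 1 - δ) ∧
          ∀ (a b : Γ) (k : ℕ),
            (avg Q)^[k] (fun g => fourth (θ.toFun (u (a * g * b)))) 1 ≤ (1 - δ) ^ k)) ∧
    (∀ (i j l : Fin n) (m : ℕ) (c : ℤ) (s₁ s₂ s₃ s₄ : Γ) (Q : Finset Γ),
      i ≠ j → j ≠ l → i ≠ l → 3 ≤ m → c ≠ 0 →
      ((s₁ : Matrix.SpecialLinearGroup (Fin n) ℤ) : Matrix (Fin n) (Fin n) ℤ) =
        Matrix.transvection i j (m : ℤ) →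
      ((s₂ : Matrix.SpecialLinearGroup (Fin n) ℤ) : Matrix (Fin n) (Fin n) ℤ) =
        Matrix.transvection j i (m : ℤ) →
      ((s₃ : Matrix.SpecialLinearGroup (Fin n) ℤ) : Matrix (Fin n) (Fin n) ℤ) =
        Matrix.transvection i l c →
      ((s₄ : Matrix.SpecialLinearGroup (Fin n) ℤ) : Matrix (Fin n) (Fin n) ℤ) =
        Matrix.transvection j l c →
      s₁ ∈ Q → s₂ ∈ Q → s₃ ∈ Q → s₄ ∈ Q →
      ∀ (Λ : Type) [Group Λ] (θ : StarIso Γ Λ), St.Canonical θ ∨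
        ((∃ s ∈ Q, fourth (θ.toFun (u s)) ≤ 1 - 1 / (32 * m ^ 2)) ∧
          ∀ (a b : Γ) (k : ℕ), (avg Q)^[k] (fun g => fourth (θ.toFun (u (a * g * b)))) 1 ≤
            (1 - 1 / (64 * m ^ 2 * Q.card)) ^ k)) ∧
    (∀ (Λ : Type) [Group Λ] (θ : StarIso Γ Λ), St.Canonical θ →
      ∃ c : ℝ, 0 < c ∧ ∀ g : Γ, c ≤ fourth (θ.toFun (u g))) := by
  refine ⟨fun Q hgen => ?_, ?_, fun Λ _ θ h => lower_of_canonical (icc_of_fi (by omega) Γ hΓ) θ h⟩
  · obtain ⟨δ, h0, h1, h⟩ := sln_gen hn hΓ hgen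
    refine ⟨δ, h0, h1, fun Λ _ θ => ?_⟩
    by_cases hc : St.Canonical θ
    · exact Or.inl hc
    · exact Or.inr (h θ hc)
  · intro i j l m c s₁ s₂ s₃ s₄ Q hij hjl hil hm hc0 h1 h2 h3 h4 q1 q2 q3 q4 Λ _ θ
    by_cases hc : St.Canonical θ
    · exact Or.inl hc
    · exact Or.inr (sln_explicit hn hΓ θ hc hij hjl hil hm hc0 h1 h2 h3 h4 q1 q2 q3 q4)
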